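import Vale.Agent.P064G.LogSpread
import Vale.Agent.P064F.Defs
import Vale.Agent.P064F.Orbit
import Vale.Agent.P064F.Orbit2
import Vale.Agent.P064F.GnpTr
import Vale.Agent.P064F.GnpEx

/-!
# P064G: the counting inequality with a logarithmic factor, for all graphs
-/

namespace Vale.Agent.P064G

open Finset Vale.Agent.P064 Vale.Agent.P064F

/-- Permutations of the vertices act on unordered pairs. -/
def actE (n : ℕ) : Equiv.Perm (Fin n) → Sym2 (Fin n) → Sym2 (Fin n) := fun π => Sym2.map π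

lemma isAct_actE (n : ℕ) : IsAct (actE n) where
  one := by
    intro x
    unfold actE
    have : ((1 : Equiv.Perm (Fin n)) : Fin n → Fin n) = id := rfl
    rw [this, Sym2.map_id]
    rfl
  mul := by
    intro g h x
    unfold actE
    rw [Sym2.map_map]
    rfl

lemma mem_PiSet_iff_image {n : ℕ} (F H : SimpleGraph (Fin n)) (π : Equiv.Perm (Fin n)) :
    π ∈ PiSet F H ↔ (edgF F).image (actE n π) ⊆ edgF H := by
  unfold PiSet actE
  simp only [mem_filter, mem_univ, true_and]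
  constructor
  · intro h e he
    obtain ⟨e', he', rfl⟩ := Finset.mem_image.1 he
    rw [mem_edgF] at he' ⊢
    induction e' using Sym2.ind with
    | _ a b =>
      rw [SimpleGraph.mem_edgeSet] at he'
      rw [Sym2.map_mk, SimpleGraph.mem_edgeSet]
      exact h a b he'
  · intro h a b hab
    have h1 : s(a, b) ∈ edgF F := by
      rw [mem_edgF]; exact hab
    have h2 := h (Finset.mem_image_of_mem _ h1)
    rw [mem_edgF, Sym2.map_mk, SimpleGraph.mem_edgeSet] at h2
    exact h2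

lemma cnt_eq_PiSet {n : ℕ} (F H : SimpleGraph (Fin n)) :
    cnt (actE n) (edgF F) (edgF H) = (PiSet F H).card := by
  unfold cnt
  congr 1
  ext π
  rw [mem_PiSet_iff_image]
  simp

lemma copies_self {n : ℕ} (W : SimpleGraph (Fin n)) : copies W W = 1 := by
  unfold copies
  rw [Set.ncard_eq_one]
  refine ⟨W, ?_⟩
  ext G
  simp only [Set.mem_setOf_eq, Set.mem_singleton_iff]
  constructor
  · rintro ⟨hle, ⟨φ⟩⟩
    have h1 : G.edgeSet ⊆ W.edgeSet := SimpleGraph.edgeSet_subset_edgeSet.2 hle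
    have h2 : W.edgeSet.ncard ≤ G.edgeSet.ncard := (ncard_edgeSet_of_iso φ).ge
    have h3 := Set.eq_of_subset_of_ncard_le h1 h2 (Set.toFinite _)
    exact SimpleGraph.edgeSet_inj.1 h3
  · rintro rfl
    exact ⟨le_rfl, ⟨SimpleGraph.Iso.refl⟩⟩

/-- The hypothesis on expected counts bounds the stabilisers. -/
lemma stab_le_of_hyp {n : ℕ} (H : SimpleGraph (Fin n)) (q : ℝ) (hq0 : 0 ≤ q)
    (hyp : ∀ W : SimpleGraph (Fin n), W ≤ H → 1 ≤ (copies ⊤ W : ℝ) * q ^ W.edgeSet.ncard)
    (W' : Finset (Sym2 (Fin n))) (hW' : W' ⊆ edgF H) :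
    (stab (actE n) W' : ℝ) ≤ (Fintype.card (Equiv.Perm (Fin n)) : ℝ) * q ^ W'.card := by
  have htop : W' ⊆ edgF (⊤ : SimpleGraph (Fin n)) :=
    hW'.trans ((edgF_subset_iff H ⊤).2 le_top)
  obtain ⟨W, hW⟩ : ∃ W : SimpleGraph (Fin n),
      W = SimpleGraph.fromEdgeSet (W' : Set (Sym2 (Fin n))) := ⟨_, rfl⟩
  have hWe : edgF W = W' := by rw [hW]; exact edgF_fromEdgeSet W' htop
  have hWH : W ≤ H := by rw [← edgF_subset_iff, hWe]; exact hW'
  have hcard : W.edgeSet.ncard = W'.card := by rw [← card_edgF, hWe]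
  have h1 : stab (actE n) W' ≤ (PiSet W W).card := by
    unfold stab
    apply Finset.card_le_card
    intro π hπ
    rw [Finset.mem_filter] at hπ
    rw [mem_PiSet_iff_image, hWe, hπ.2]
  have h2 : copies W W * (Fintype.card (Fin n)).factorial = copies ⊤ W * (PiSet W W).card :=
    orbit_count W W
  rw [copies_self, one_mul] at h2
  have h3 : ((Fintype.card (Fin n)).factorial : ℝ) =
      (copies ⊤ W : ℝ) * ((PiSet W W).card : ℝ) := by exact_mod_cast h2
  have h4 := hyp W hWH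
  rw [hcard] at h4
  rw [Fintype.card_perm, h3]
  have h5 : (0 : ℝ) ≤ ((PiSet W W).card : ℝ) := by positivity
  calc (stab (actE n) W' : ℝ) ≤ ((PiSet W W).card : ℝ) := by exact_mod_cast h1
    _ = 1 * ((PiSet W W).card : ℝ) := by ring
    _ ≤ ((copies ⊤ W : ℝ) * q ^ W'.card) * ((PiSet W W).card : ℝ) :=
        mul_le_mul_of_nonneg_right h4 h5
    _ = _ := by ring

/-- The logarithmic factor. -/
noncomputable def lgF (n : ℕ) : ℝ := (Nat.log 2 (n.choose 2) : ℝ) + 1

lemma lgF_pos (n : ℕ) : 1 ≤ lgF n := by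
  unfold lgF
  have : (0 : ℝ) ≤ (Nat.log 2 (n.choose 2) : ℝ) := by positivity
  linarith

/-- Spread of the copies of an arbitrary graph, in the form used by the Park-Pham step. -/
theorem cnt_le_gen {n : ℕ} (H : SimpleGraph (Fin n)) (q : ℝ) (hq0 : 0 ≤ q)
    (hyp : ∀ W : SimpleGraph (Fin n), W ≤ H → 1 ≤ (copies ⊤ W : ℝ) * q ^ W.edgeSet.ncard)
    (S : Finset (Sym2 (Fin n))) :
    (cnt (actE n) S (edgF H) : ℝ) ≤
      (Fintype.card (Equiv.Perm (Fin n)) : ℝ) * (4 * lgF n * q) ^ S.card := by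
  have h1 := log_spread (isAct_actE n) q hq0 (edgF H).card (edgF H) rfl
    (fun W' hW' => stab_le_of_hyp H q hq0 hyp W' hW') S
  refine h1.trans ?_
  apply mul_le_mul_of_nonneg_left _ (by positivity)
  apply pow_le_pow_left₀ (by positivity)
  have h2 : (edgF H).card ≤ n.choose 2 := by
    rw [← card_edgF_top]
    exact Finset.card_le_card ((edgF_subset_iff H ⊤).2 le_top)
  have h3 : Nat.log 2 (edgF H).card ≤ Nat.log 2 (n.choose 2) := Nat.log_mono_right h2
  have h4 : (Nat.log 2 (edgF H).card : ℝ) ≤ (Nat.log 2 (n.choose 2) : ℝ) := by exact_mod_cast h3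
  unfold lgF
  have : (Nat.log 2 (edgF H).card : ℝ) + 1 ≤ (Nat.log 2 (n.choose 2) : ℝ) + 1 := by linarith
  have h5 : 4 * ((Nat.log 2 (edgF H).card : ℝ) + 1) ≤ 4 * ((Nat.log 2 (n.choose 2) : ℝ) + 1) := by
    linarith
  exact mul_le_mul_of_nonneg_right h5 hq0

theorem PiSet_card_le_gen {n : ℕ} (H : SimpleGraph (Fin n)) (q : ℝ) (hq0 : 0 ≤ q)
    (hyp : ∀ W : SimpleGraph (Fin n), W ≤ H → 1 ≤ (copies ⊤ W : ℝ) * q ^ W.edgeSet.ncard)
    (F : SimpleGraph (Fin n)) :
    ((PiSet F H).card : ℝ) ≤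
      ((Fintype.card (Fin n)).factorial : ℝ) * (4 * lgF n * q) ^ F.edgeSet.ncard := by
  have h := cnt_le_gen H q hq0 hyp (edgF F)
  rwa [cnt_eq_PiSet, card_edgF, Fintype.card_perm] at h

/-- The Dubroff-Kahn-Park counting inequality for all graphs `H`, with a logarithmic factor. -/
theorem gen_spread {n : ℕ} (H : SimpleGraph (Fin n)) (q : ℝ) (hq0 : 0 ≤ q)
    (hyp : ∀ W : SimpleGraph (Fin n), W ≤ H → 1 ≤ (copies ⊤ W : ℝ) * q ^ W.edgeSet.ncard)
    (F : SimpleGraph (Fin n)) :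
    (copies H F : ℝ) ≤ (copies ⊤ F : ℝ) * (min 1 (4 * lgF n * q)) ^ F.edgeSet.ncard := by
  have htop : (copies H F : ℝ) ≤ (copies ⊤ F : ℝ) := by exact_mod_cast copies_le_top H F
  by_cases hL : 1 ≤ 4 * lgF n * q
  · rw [min_eq_left hL, one_pow, mul_one]; exact htop
  push Not at hL
  rw [min_eq_right hL.le]
  have h1 := PiSet_card_le_gen H q hq0 hyp F
  have h2 : (copies H F : ℝ) * ((Fintype.card (Fin n)).factorial : ℝ) =
      (copies ⊤ F : ℝ) * ((PiSet F H).card : ℝ) := by exact_mod_cast orbit_count H F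
  have hfac : (0 : ℝ) < ((Fintype.card (Fin n)).factorial : ℝ) := by positivity
  have h3 : (copies H F : ℝ) * ((Fintype.card (Fin n)).factorial : ℝ) ≤
      ((copies ⊤ F : ℝ) * (4 * lgF n * q) ^ F.edgeSet.ncard) *
        ((Fintype.card (Fin n)).factorial : ℝ) := by
    rw [h2]
    calc (copies ⊤ F : ℝ) * ((PiSet F H).card : ℝ)
        ≤ (copies ⊤ F : ℝ) * (((Fintype.card (Fin n)).factorial : ℝ) *
          (4 * lgF n * q) ^ F.edgeSet.ncard) := mul_le_mul_of_nonneg_left h1 (by positivity)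
      _ = _ := by ring
  exact le_of_mul_le_mul_right h3 hfac

/-- The spread hypothesis of `pp_spread`. -/
lemma spread_gen {n : ℕ} (H : SimpleGraph (Fin n)) (q : ℝ) (hq0 : 0 ≤ q)
    (hyp : ∀ W : SimpleGraph (Fin n), W ≤ H → 1 ≤ (copies ⊤ W : ℝ) * q ^ W.edgeSet.ncard)
    (S : Finset (Sym2 (Fin n))) :
    ((univ.filter fun π : Equiv.Perm (Fin n) => S ⊆ cpE H π).card : ℝ) ≤
      (4 * lgF n * q) ^ S.card * (Fintype.card (Equiv.Perm (Fin n)) : ℝ) := by
  have hle : (univ.filter fun π : Equiv.Perm (Fin n) => S ⊆ cpE H π).card ≤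
      cnt (actE n) S (edgF H) := by
    unfold cnt
    apply Finset.card_le_card_of_injOn (fun π => π⁻¹)
    · intro π hπ
      have hπ' : S ⊆ cpE H π := by simpa using hπ
      have hgoal : S.image (actE n π⁻¹) ⊆ edgF H := by
        intro e he
        obtain ⟨e', he', rfl⟩ := Finset.mem_image.1 he
        have h2 := hπ' he'
        unfold cpE at h2
        obtain ⟨e'', he'', rfl⟩ := Finset.mem_image.1 h2
        have : actE n π⁻¹ (Sym2.map (⇑π) e'') = e'' := by
          have h3 := (isAct_actE n).mul π⁻¹ π e''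
          rw [inv_mul_cancel, (isAct_actE n).one] at h3
          exact h3.symm
        rw [this]
        exact he''
      simpa using hgoal
    · intro π _ π' _ h
      exact inv_injective h
  calc ((univ.filter fun π : Equiv.Perm (Fin n) => S ⊆ cpE H π).card : ℝ)
      ≤ (cnt (actE n) S (edgF H) : ℝ) := by exact_mod_cast hle
    _ ≤ _ := cnt_le_gen H q hq0 hyp S
    _ = _ := by ring

end Vale.Agent.P064G
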