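import Vale.Agent.P064G.Peel

/-!
# P064G: logarithmic spread from the stabiliser hypothesis
-/

namespace Vale.Agent.P064G

open Finset

set_option linter.unusedSectionVars false

variable {G X : Type*} [Group G] [Fintype G] [Fintype X] [DecidableEq X]
variable {act : G → X → X}

/-- The elements moving `A` onto a fixed set `W` inject into the stabiliser of `W`. -/
lemma fiber_le_stab (h : IsAct act) (A W : Finset X) :
    (univ.filter fun g : G => A.image (act g) = W).card ≤ stab act W := by
  rcases (univ.filter fun g : G => A.image (act g) = W).eq_empty_or_nonempty with he | ⟨g₀, hg₀⟩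
  · rw [he]; simp
  rw [Finset.mem_filter] at hg₀
  unfold stab
  apply Finset.card_le_card_of_injOn (fun g => g * g₀⁻¹)
  · intro g hg
    have hg' : A.image (act g) = W := by simpa using hg
    have : W.image (act (g * g₀⁻¹)) = W := by
      conv_lhs => rw [← hg₀.2]
      rw [← h.image_mul, inv_mul_cancel_right, hg']
    simpa using this
  · intro g _ g' _ hgg
    exact mul_right_cancel hgg

/-- At most `2^{|T|}` images, each reached by at most `|G| q^{|A|}` elements. -/
lemma cnt_le_two_pow (h : IsAct act) (T : Finset X) (q : ℝ) (hq : 0 ≤ q)
    (hyp : ∀ W : Finset X, W ⊆ T → (stab act W : ℝ) ≤ (Fintype.card G : ℝ) * q ^ W.card)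
    (A : Finset X) :
    (cnt act A T : ℝ) ≤ 2 ^ T.card * ((Fintype.card G : ℝ) * q ^ A.card) := by
  have h1 : cnt act A T = ∑ W ∈ T.powerset,
      ((univ.filter fun g : G => A.image (act g) ⊆ T).filter
        fun g => A.image (act g) = W).card := by
    unfold cnt
    apply Finset.card_eq_sum_card_fiberwise
    intro g hg
    have hg' : A.image (act g) ⊆ T := (Finset.mem_filter.1 hg).2
    exact Finset.mem_coe.2 (Finset.mem_powerset.2 hg')
  rw [h1]
  push_cast
  calc ∑ W ∈ T.powerset, (((univ.filter fun g : G => A.image (act g) ⊆ T).filter
        fun g => A.image (act g) = W).card : ℝ)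
      ≤ ∑ _W ∈ T.powerset, ((Fintype.card G : ℝ) * q ^ A.card) := by
        refine Finset.sum_le_sum fun W hW => ?_
        rw [Finset.mem_powerset] at hW
        rcases ((univ.filter fun g : G => A.image (act g) ⊆ T).filter
          fun g => A.image (act g) = W).eq_empty_or_nonempty with he | ⟨g₀, hg₀⟩
        · rw [he]
          simp only [Finset.card_empty, Nat.cast_zero]
          positivity
        · rw [Finset.mem_filter] at hg₀
          have hc : W.card = A.card := by rw [← hg₀.2, h.card_image]
          have h2 : ((univ.filter fun g : G => A.image (act g) ⊆ T).filter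
              fun g => A.image (act g) = W).card ≤ stab act W := by
            refine le_trans (Finset.card_le_card ?_) (fiber_le_stab h A W)
            intro g hg
            rw [Finset.mem_filter] at hg
            simpa using hg.2
          calc _ ≤ (stab act W : ℝ) := by exact_mod_cast h2
            _ ≤ _ := hyp W hW
            _ = _ := by rw [hc]
    _ = 2 ^ T.card * ((Fintype.card G : ℝ) * q ^ A.card) := by
        rw [Finset.sum_const, Finset.card_powerset, nsmul_eq_mul]
        push_cast
        ring

lemma cnt_into_empty (I : Finset X) :
    (cnt act I ∅ : ℝ) ≤ (Fintype.card G : ℝ) * (0 : ℝ) ^ I.card := by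
  rcases I.eq_empty_or_nonempty with rfl | hne
  · rw [cnt_empty]; simp
  · have : cnt act I ∅ = 0 := by
      unfold cnt
      rw [Finset.card_eq_zero, Finset.filter_eq_empty_iff]
      intro g _ hg
      rw [Finset.subset_empty, Finset.image_eq_empty] at hg
      exact hne.ne_empty hg
    rw [this]
    simp only [Nat.cast_zero]
    positivity

/-- The main abstract theorem. -/
theorem log_spread (h : IsAct act) (q : ℝ) (hq : 0 ≤ q) :
    ∀ (m : ℕ) (T : Finset X), T.card = m →
      (∀ W : Finset X, W ⊆ T → (stab act W : ℝ) ≤ (Fintype.card G : ℝ) * q ^ W.card) →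
      ∀ S : Finset X, (cnt act S T : ℝ) ≤
        (Fintype.card G : ℝ) * (4 * ((Nat.log 2 m : ℝ) + 1) * q) ^ S.card := by
  intro m
  induction m using Nat.strong_induction_on with
  | _ m ih =>
    intro T hT hyp S
    have hG : (0 : ℝ) < (Fintype.card G : ℝ) := by
      have : 0 < Fintype.card G := Fintype.card_pos
      exact_mod_cast this
    rcases hq.eq_or_lt with rfl | hq0
    · -- `q = 0` forces `T = ∅`
      have hTe : T = ∅ := by
        by_contra hne
        have h1 := hyp T (Finset.Subset.refl _)
        have hc : T.card ≠ 0 := by
          rw [Finset.card_ne_zero]; exact Finset.nonempty_iff_ne_empty.2 hne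
        rw [zero_pow hc, mul_zero] at h1
        have h2 : 0 < stab act T := by
          unfold stab
          apply Finset.card_pos.2
          refine ⟨1, ?_⟩
          rw [Finset.mem_filter]
          refine ⟨mem_univ _, ?_⟩
          have : act 1 = id := by
            funext x; exact h.one x
          rw [this, Finset.image_id]
        have h3 : (0 : ℝ) < (stab act T : ℝ) := by exact_mod_cast h2
        linarith
      subst hTe
      have := cnt_into_empty (act := act) S
      simpa using this
    · set p : ℝ := 4 * q with hp
      have hp0 : 0 < p := by positivity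
      obtain ⟨A, hAT, hmax⟩ := exists_max h T p hp0
      -- the size of `A`
      have hsize : 2 * A.card ≤ T.card := by
        have h1 := hmax ∅
        rw [cnt_empty, Finset.card_empty, pow_zero, mul_one] at h1
        have h2 := cnt_le_two_pow h T q hq0.le hyp A
        have h3 : (Fintype.card G : ℝ) * p ^ A.card ≤
            2 ^ T.card * ((Fintype.card G : ℝ) * q ^ A.card) := h1.trans h2
        rw [hp, mul_pow] at h3
        have hqA : (0 : ℝ) < q ^ A.card := by positivity
        have h4 : ((4 : ℝ) ^ A.card) * ((Fintype.card G : ℝ) * q ^ A.card) ≤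
            2 ^ T.card * ((Fintype.card G : ℝ) * q ^ A.card) := by
          calc _ = (Fintype.card G : ℝ) * (4 ^ A.card * q ^ A.card) := by ring
            _ ≤ _ := h3
        have h5 : ((4 : ℝ) ^ A.card) ≤ 2 ^ T.card :=
          le_of_mul_le_mul_right h4 (by positivity)
        have h6 : ((2 : ℝ) ^ (2 * A.card)) ≤ 2 ^ T.card := by
          rw [pow_mul]; norm_num; exact h5
        exact (pow_le_pow_iff_right₀ (by norm_num : (1 : ℝ) < 2)).1 h6
      rcases A.eq_empty_or_nonempty with hAe | hAne
      · -- nothing is denser than `p`
        subst hAe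
        have h1 := peel h T ∅ p 0 hp0 hmax (fun I => cnt_into_empty I) S
        refine h1.trans ?_
        apply mul_le_mul_of_nonneg_left _ hG.le
        apply pow_le_pow_left₀ (by positivity)
        rw [zero_add, hp]
        have : (0 : ℝ) ≤ (Nat.log 2 m : ℝ) := by positivity
        nlinarith
      · have hA1 : 1 ≤ A.card := Finset.card_pos.2 hAne
        have hlt : A.card < m := by omega
        have hκ := ih A.card hlt A rfl (fun W hW => hyp W (hW.trans hAT))
        have h1 := peel h T A p _ hp0 hmax hκ S
        refine h1.trans ?_
        apply mul_le_mul_of_nonneg_left _ hG.le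
        apply pow_le_pow_left₀ (by positivity)
        have hlog : Nat.log 2 A.card + 1 ≤ Nat.log 2 m := by
          have e1 : Nat.log 2 (A.card * 2) = Nat.log 2 A.card + 1 :=
            Nat.log_mul_base (by norm_num) (by omega)
          rw [← e1]
          apply Nat.log_mono_right
          omega
        have hlog' : (Nat.log 2 A.card : ℝ) + 1 ≤ (Nat.log 2 m : ℝ) := by exact_mod_cast hlog
        rw [hp]
        nlinarith

end Vale.Agent.P064G
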