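import Vale.Agent.P064G.Graph
import Vale.Agent.P064F.GnpDefs
import Vale.Agent.P064F.GnpMin
import Vale.Agent.P064F.PP5

/-!
# P064G: `tilde p_E = O(p_E log n)` and `p_c = O(p_E log^2 n)` for all graphs
-/

namespace Vale.Agent.P064G

open Finset Vale.Agent.P064 Vale.Agent.P064F

/-- The hypothesis of the counting theorem at `q = 2p`. -/
lemma hyp_of_mem' {n : ℕ} (H : SimpleGraph (Fin n)) (p : ℝ) (hp0 : 0 ≤ p)
    (hp : ∀ F : SimpleGraph (Fin n), F ≤ H → 1 / 2 ≤ expN n F p) :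
    ∀ W : SimpleGraph (Fin n), W ≤ H → 1 ≤ (copies ⊤ W : ℝ) * (2 * p) ^ W.edgeSet.ncard := by
  intro W hW
  have h1 := hp W hW
  rw [expN_eq] at h1
  have hc : (1 : ℝ) ≤ (copies ⊤ W : ℝ) := by exact_mod_cast one_le_copies_top W
  rcases Nat.eq_zero_or_pos W.edgeSet.ncard with h0 | hpos
  · rw [h0, pow_zero, mul_one]; exact hc
  · rw [mul_pow]
    have h2 : (2 : ℝ) ≤ 2 ^ W.edgeSet.ncard := by
      calc (2 : ℝ) = 2 ^ 1 := by norm_num
        _ ≤ 2 ^ W.edgeSet.ncard := pow_le_pow_right₀ (by norm_num) hpos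
    have h3 : 0 ≤ (copies ⊤ W : ℝ) * p ^ W.edgeSet.ncard := by positivity
    nlinarith

/-- A member of the `p_E`-set is positive when `H` has an edge. -/
lemma pos_of_mem' {n : ℕ} (H : SimpleGraph (Fin n)) (hH : H ≠ ⊥) (p : ℝ) (hp0 : 0 ≤ p)
    (hp : ∀ F : SimpleGraph (Fin n), F ≤ H → 1 / 2 ≤ expN n F p) : 0 < p := by
  rcases hp0.eq_or_lt with rfl | h
  · exfalso
    have h1 := hp H le_rfl
    rw [expN_eq] at h1
    have hne : H.edgeSet.ncard ≠ 0 := by
      intro h0
      apply hH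
      have := (Set.ncard_eq_zero (Set.toFinite _)).mp h0
      exact SimpleGraph.edgeSet_eq_empty.mp this
    rw [zero_pow hne, mul_zero] at h1
    norm_num at h1
  · exact h

/-- `log₂ C(n,2) + 1 ≤ 5 ln n`. -/
lemma lgF_le (n : ℕ) (hn : 2 ≤ n) : lgF n ≤ 5 * Real.log n := by
  unfold lgF
  set c := Nat.log 2 (n.choose 2) with hc
  have hpos : n.choose 2 ≠ 0 := by
    have : 0 < n.choose 2 := Nat.choose_pos hn
    omega
  have h1 : 2 ^ c ≤ n.choose 2 := Nat.pow_log_le_self 2 hpos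
  have h2 : n.choose 2 ≤ n ^ 2 := Nat.choose_le_pow n 2
  have h3 : ((2 : ℝ) ^ c) ≤ (n : ℝ) ^ 2 := by exact_mod_cast h1.trans h2
  have h4 : Real.log ((2 : ℝ) ^ c) ≤ Real.log ((n : ℝ) ^ 2) :=
    Real.log_le_log (by positivity) h3
  rw [Real.log_pow, Real.log_pow] at h4
  have hl2 := Real.log_two_gt_d9
  have hln : Real.log 2 ≤ Real.log n :=
    Real.log_le_log (by norm_num) (by exact_mod_cast hn)
  push_cast at h4
  have hc0 : (0 : ℝ) ≤ (c : ℝ) := by positivity
  nlinarith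

/-- The modified expectation threshold. -/
lemma pEt_mem_gen {n : ℕ} (H : SimpleGraph (Fin n)) (p : ℝ) (hp0 : 0 ≤ p)
    (hp : ∀ F : SimpleGraph (Fin n), F ≤ H → 1 / 2 ≤ expN n F p)
    (F : SimpleGraph (Fin n)) :
    (copies H F : ℝ) / 2 ≤ expN n F (min 1 (8 * lgF n * p)) := by
  have h := gen_spread H (2 * p) (by positivity) (hyp_of_mem' H p hp0 hp) F
  rw [expN_eq]
  have e : 4 * lgF n * (2 * p) = 8 * lgF n * p := by ring
  rw [e] at h
  have : (0 : ℝ) ≤ (copies H F : ℝ) := by positivity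
  linarith

/-- The main probabilistic step. -/
lemma probHas_ge_gen {n : ℕ} (H : SimpleGraph (Fin n)) (p : ℝ) (hp0 : 0 < p)
    (hp : ∀ F : SimpleGraph (Fin n), F ≤ H → 1 / 2 ≤ expN n F p)
    (hsmall : 512 * lgF n * p ≤ 1) :
    1 / 2 ≤ probHas n H (rho (512 * lgF n * p) (Nat.log 2 (n.choose 2) + 1)) := by
  have hl := lgF_pos n
  have hsp : ∀ S : Finset (Sym2 (Fin n)),
      ((univ.filter fun π : Equiv.Perm (Fin n) => S ⊆ cpE H π).card : ℝ) ≤
      (8 * lgF n * p) ^ S.card * (Fintype.card (Equiv.Perm (Fin n)) : ℝ) := by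
    intro S
    have := spread_gen H (2 * p) (by positivity) (hyp_of_mem' H p hp0.le hp) S
    have e : 4 * lgF n * (2 * p) = 8 * lgF n * p := by ring
    rwa [e] at this
  have hf := pp_spread (edgF (⊤ : SimpleGraph (Fin n))) (cpE H) (8 * lgF n * p) (512 * lgF n * p)
    (by positivity) (by positivity) hsmall (by linarith) (Nat.log 2 (n.choose 2) + 1) (by
      intro π
      refine ⟨(cpE_prop H π).1, ?_⟩
      have h2 : (cpE H π).card ≤ n.choose 2 := by
        rw [← card_edgF_top]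
        exact Finset.card_le_card (cpE_prop H π).1
      calc (cpE H π).card ≤ n.choose 2 := h2
        _ < 2 ^ (Nat.log 2 (n.choose 2) + 1) := Nat.lt_pow_succ_log_self (by norm_num) _) hsp
  rw [probHas_eq]
  linarith

theorem gen_threshold (n : ℕ) (hn : 2 ≤ n) (H : SimpleGraph (Fin n)) (hH : H ≠ ⊥) :
    pEt n H ≤ 40 * pE n H * Real.log n ∧ pC n H ≤ 12800 * pE n H * (Real.log n) ^ 2 := by
  obtain ⟨⟨hp0', hp1, hp⟩, -⟩ := pE_isLeast n H
  set p := pE n H with hpdef
  have hp0 : 0 < p := pos_of_mem' H hH p hp0' hp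
  have hl1 := lgF_pos n
  have hl5 := lgF_le n hn
  have hlog : 0 ≤ Real.log n := by linarith
  constructor
  · have hmem : min 1 (8 * lgF n * p) ∈ {p : ℝ | 0 ≤ p ∧ p ≤ 1 ∧
        ∀ F : SimpleGraph (Fin n), F ≤ H → (copies H F : ℝ) / 2 ≤ expN n F p} :=
      ⟨le_min zero_le_one (by positivity), min_le_left _ _, fun F _ => pEt_mem_gen H p hp0' hp F⟩
    have h1 : pEt n H ≤ 8 * lgF n * p := ((pEt_isLeast n H).2 hmem).trans (min_le_right _ _)
    have h2 : 8 * lgF n * p ≤ 8 * (5 * Real.log n) * p := by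
      apply mul_le_mul_of_nonneg_right _ hp0.le
      linarith
    linarith
  · have hsq : lgF n * lgF n ≤ (5 * Real.log n) * (5 * Real.log n) :=
      mul_le_mul hl5 hl5 (by linarith) (by linarith)
    have hfin : 512 * (lgF n * lgF n) * p ≤ 12800 * p * (Real.log n) ^ 2 := by
      have : 512 * (lgF n * lgF n) * p ≤ 512 * ((5 * Real.log n) * (5 * Real.log n)) * p := by
        apply mul_le_mul_of_nonneg_right _ hp0.le
        linarith
      calc _ ≤ _ := this
        _ = _ := by ring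
    by_cases hsmall : 512 * lgF n * p ≤ 1
    · have hge := probHas_ge_gen H p hp0 hp hsmall
      obtain ⟨hr0, hr1⟩ := rho_mem (512 * lgF n * p) (by positivity) hsmall
        (Nat.log 2 (n.choose 2) + 1)
      have hle := rho_le (512 * lgF n * p) (by positivity) hsmall (Nat.log 2 (n.choose 2) + 1)
      have h1 : pC n H ≤ rho (512 * lgF n * p) (Nat.log 2 (n.choose 2) + 1) :=
        (pC_isLeast n H).2 ⟨hr0, hr1, hge⟩
      have h2 : ((Nat.log 2 (n.choose 2) + 1 : ℕ) : ℝ) = lgF n := by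
        unfold lgF; push_cast; ring
      rw [h2] at hle
      calc pC n H ≤ _ := h1
        _ ≤ lgF n * (512 * lgF n * p) := hle
        _ = 512 * (lgF n * lgF n) * p := by ring
        _ ≤ _ := hfin
    · push Not at hsmall
      have h1 : pC n H ≤ 1 := (pC_isLeast n H).1.2.1
      have h3 : 512 * lgF n * p ≤ 512 * (lgF n * lgF n) * p := by
        apply mul_le_mul_of_nonneg_right _ hp0.le
        nlinarith
      linarith

end Vale.Agent.P064G
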