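import Vale.Agent.P064G.Sharp
import Vale.Agent.P064G.Threshold
import Vale.Agent.P064F.GnpMain

/-! # P064: order relations between the three thresholds (sanity facts for the hand-in) -/

namespace Vale.Agent.P064G

open Finset Vale.Agent.P064 Vale.Agent.P064F

/-- A graph containing a copy of `H` contains a copy of every `F ≤ H`. -/
lemma one_le_copies_of_le {n : ℕ} {G H F : SimpleGraph (Fin n)} (h : 0 < copies G H)
    (hF : F ≤ H) : 1 ≤ copies G F := by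
  unfold copies at h ⊢
  rw [Set.ncard_pos (Set.toFinite _)] at h
  obtain ⟨G', hG', ⟨φ⟩⟩ := h
  rw [Nat.succ_le_iff, Set.ncard_pos (Set.toFinite _)]
  refine ⟨F.comap φ.toEquiv.toEmbedding, ?_, ⟨SimpleGraph.Iso.comap φ.toEquiv F⟩⟩
  intro a b hab
  have h1 : F.Adj (φ a) (φ b) := hab
  exact hG' (φ.map_rel_iff.1 (hF h1))

lemma gnpW_nonneg (n : ℕ) (p : ℝ) (hp0 : 0 ≤ p) (hp1 : p ≤ 1) (G : SimpleGraph (Fin n)) :
    0 ≤ gnpW n p G := by
  unfold gnpW
  have : 0 ≤ 1 - p := by linarith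
  positivity

lemma probHas_le_expN (n : ℕ) (H F : SimpleGraph (Fin n)) (hF : F ≤ H) (p : ℝ) (hp0 : 0 ≤ p)
    (hp1 : p ≤ 1) : probHas n H p ≤ expN n F p := by
  unfold probHas expN
  apply Finset.sum_le_sum
  intro G _
  have hw := gnpW_nonneg n p hp0 hp1 G
  split_ifs with h
  · have h1 : (1 : ℝ) ≤ (copies G F : ℝ) := by exact_mod_cast one_le_copies_of_le h hF
    nlinarith
  · positivity

lemma pE_pos (n : ℕ) (H : SimpleGraph (Fin n)) (hH : H ≠ ⊥) : 0 < pE n H := by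
  obtain ⟨⟨hp0, _, hp⟩, -⟩ := pE_isLeast n H
  exact pos_of_mem H hH _ hp0 hp

lemma pE_le_pC (n : ℕ) (H : SimpleGraph (Fin n)) : pE n H ≤ pC n H := by
  obtain ⟨⟨hp0, hp1, hp⟩, -⟩ := pC_isLeast n H
  exact (pE_isLeast n H).2 ⟨hp0, hp1, fun F hF => hp.trans (probHas_le_expN n H F hF _ hp0 hp1)⟩

lemma pE_le_pEt (n : ℕ) (H : SimpleGraph (Fin n)) : pE n H ≤ pEt n H := by
  obtain ⟨⟨hp0, hp1, hp⟩, -⟩ := pEt_isLeast n H
  refine (pE_isLeast n H).2 ⟨hp0, hp1, fun F hF => le_trans ?_ (hp F hF)⟩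
  have h0 : 0 < copies H H := by rw [copies_self]; exact Nat.one_pos
  have h1 : (1 : ℝ) ≤ (copies H F : ℝ) := by exact_mod_cast one_le_copies_of_le h0 hF
  linarith

end Vale.Agent.P064G
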