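import Mathlib

/-!
# P064G: the peeling lemma for spread under a group action

`G` is a finite group acting on a finite set `X` (through `act`).  For finite sets `S T` let
`cnt S T` be the number of `g` with `g S ⊆ T`.  If every `W ⊆ T` has at most `|G| q^{|W|}`
stabilising elements, then `cnt S T ≤ |G| (4 (log₂ |T| + 1) q)^{|S|}` for every `S`.
-/

namespace Vale.Agent.P064G

open Finset

set_option linter.unusedSectionVars false

variable {G X : Type*} [Group G] [Fintype G] [Fintype X] [DecidableEq X]

/-- The axioms of a group action, for a bare function. -/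
structure IsAct (act : G → X → X) : Prop where
  one : ∀ x, act 1 x = x
  mul : ∀ g h x, act (g * h) x = act g (act h x)

/-- The number of group elements moving `S` into `T`. -/
def cnt (act : G → X → X) (S T : Finset X) : ℕ :=
  (univ.filter fun g : G => S.image (act g) ⊆ T).card

/-- The number of group elements fixing `W` as a set. -/
def stab (act : G → X → X) (W : Finset X) : ℕ :=
  (univ.filter fun g : G => W.image (act g) = W).card

variable {act : G → X → X}

lemma IsAct.inj (h : IsAct act) (g : G) : Function.Injective (act g) := by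
  intro x y hxy
  have h1 : act g⁻¹ (act g x) = act g⁻¹ (act g y) := by rw [hxy]
  rwa [← h.mul, ← h.mul, inv_mul_cancel, h.one, h.one] at h1

lemma IsAct.image_mul (h : IsAct act) (g k : G) (S : Finset X) :
    S.image (act (g * k)) = (S.image (act k)).image (act g) := by
  rw [Finset.image_image]
  apply Finset.image_congr
  intro x _
  exact h.mul g k x

lemma IsAct.card_image (h : IsAct act) (g : G) (S : Finset X) :
    (S.image (act g)).card = S.card :=
  Finset.card_image_of_injective _ (h.inj g)

lemma cnt_empty (T : Finset X) : cnt act ∅ T = Fintype.card G := by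
  unfold cnt
  simp

lemma cnt_eq_sum (S T : Finset X) :
    cnt act S T = ∑ g : G, if S.image (act g) ⊆ T then 1 else 0 := by
  unfold cnt
  rw [Finset.card_filter]

/-- Double counting of pairs. -/
lemma cnt_mul (h : IsAct act) (A S T : Finset X) :
    cnt act A T * cnt act S T = ∑ τ : G, cnt act (A ∪ S.image (act τ)) T := by
  have h1 : ∀ τ : G, cnt act (A ∪ S.image (act τ)) T =
      ∑ g : G, (if A.image (act g) ⊆ T then
        (if S.image (act (g * τ)) ⊆ T then 1 else 0) else 0) := by
    intro τ
    rw [cnt_eq_sum]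
    refine Finset.sum_congr rfl fun g _ => ?_
    have key : (A ∪ S.image (act τ)).image (act g) ⊆ T ↔
        A.image (act g) ⊆ T ∧ S.image (act (g * τ)) ⊆ T := by
      rw [Finset.image_union, Finset.union_subset_iff, ← h.image_mul]
    by_cases h1 : A.image (act g) ⊆ T
    · by_cases h2 : S.image (act (g * τ)) ⊆ T
      · rw [if_pos (key.2 ⟨h1, h2⟩), if_pos h1, if_pos h2]
      · rw [if_neg (fun h3 => h2 (key.1 h3).2), if_pos h1, if_neg h2]
    · rw [if_neg (fun h3 => h1 (key.1 h3).1), if_neg h1]
  simp_rw [h1]
  rw [Finset.sum_comm]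
  have h2 : ∀ g : G, ∑ τ : G, (if A.image (act g) ⊆ T then
        (if S.image (act (g * τ)) ⊆ T then 1 else 0) else 0) =
      if A.image (act g) ⊆ T then cnt act S T else 0 := by
    intro g
    by_cases hg : A.image (act g) ⊆ T
    · simp only [if_pos hg]
      rw [cnt_eq_sum]
      exact Fintype.sum_equiv (Equiv.mulLeft g) _ _ (fun τ => rfl)
    · simp only [if_neg hg]
      simp
  simp_rw [h2]
  rw [← Finset.sum_filter, Finset.sum_const, smul_eq_mul]
  rfl

/-- `cnt` is invariant under moving the pattern. -/
lemma cnt_image (h : IsAct act) (g₀ : G) (A T : Finset X) :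
    cnt act (A.image (act g₀)) T = cnt act A T := by
  rw [cnt_eq_sum, cnt_eq_sum]
  refine Fintype.sum_equiv (Equiv.mulRight g₀) _ _ (fun g => ?_)
  rw [Equiv.coe_mulRight, h.image_mul]

/-- A maximiser of `cnt B T / p^{|B|}` that lies inside `T`. -/
lemma exists_max (h : IsAct act) (T : Finset X) (p : ℝ) (hp : 0 < p) :
    ∃ A : Finset X, A ⊆ T ∧ ∀ B : Finset X,
      (cnt act B T : ℝ) * p ^ A.card ≤ (cnt act A T : ℝ) * p ^ B.card := by
  obtain ⟨A₀, -, hA₀⟩ := Finset.exists_max_image (univ : Finset (Finset X))
    (fun B => (cnt act B T : ℝ) / p ^ B.card) ⟨∅, mem_univ _⟩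
  have hmax : ∀ B : Finset X,
      (cnt act B T : ℝ) * p ^ A₀.card ≤ (cnt act A₀ T : ℝ) * p ^ B.card := by
    intro B
    have := hA₀ B (mem_univ _)
    rwa [div_le_div_iff₀ (by positivity) (by positivity)] at this
  have hpos : 0 < cnt act A₀ T := by
    have h1 := hmax ∅
    rw [cnt_empty, Finset.card_empty, pow_zero, mul_one] at h1
    have h2 : (0 : ℝ) < (Fintype.card G : ℝ) * p ^ A₀.card := by
      have : 0 < Fintype.card G := Fintype.card_pos
      positivity
    have h3 : (0 : ℝ) < (cnt act A₀ T : ℝ) := lt_of_lt_of_le h2 h1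
    exact_mod_cast h3
  obtain ⟨g₀, hg₀⟩ := Finset.card_pos.1 hpos
  rw [Finset.mem_filter] at hg₀
  refine ⟨A₀.image (act g₀), hg₀.2, fun B => ?_⟩
  rw [cnt_image h, h.card_image]
  exact hmax B

/-- The peeling lemma. -/
lemma peel (h : IsAct act) (T A : Finset X) (p κ : ℝ) (hp : 0 < p)
    (hmax : ∀ B : Finset X,
      (cnt act B T : ℝ) * p ^ A.card ≤ (cnt act A T : ℝ) * p ^ B.card)
    (hκ : ∀ I : Finset X, (cnt act I A : ℝ) ≤ (Fintype.card G : ℝ) * κ ^ I.card)
    (S : Finset X) :
    (cnt act S T : ℝ) ≤ (Fintype.card G : ℝ) * (κ + p) ^ S.card := by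
  have hpos : (0 : ℝ) < (cnt act A T : ℝ) := by
    have h1 := hmax ∅
    rw [cnt_empty, Finset.card_empty, pow_zero, mul_one] at h1
    have h2 : (0 : ℝ) < (Fintype.card G : ℝ) * p ^ A.card := by
      have : 0 < Fintype.card G := Fintype.card_pos
      positivity
    exact lt_of_lt_of_le h2 h1
  -- step 1
  have h1 : (cnt act S T : ℝ) ≤ ∑ τ : G, p ^ (S.image (act τ) \ A).card := by
    have h2 : (cnt act A T : ℝ) * (cnt act S T : ℝ) =
        ∑ τ : G, (cnt act (A ∪ S.image (act τ)) T : ℝ) := by
      exact_mod_cast cnt_mul h A S T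
    have h3 : ∀ τ : G, (cnt act (A ∪ S.image (act τ)) T : ℝ) ≤
        (cnt act A T : ℝ) * p ^ (S.image (act τ) \ A).card := by
      intro τ
      have h4 := hmax (A ∪ S.image (act τ))
      have h5 : (A ∪ S.image (act τ)).card = A.card + (S.image (act τ) \ A).card := by
        rw [← Finset.union_sdiff_self_eq_union,
          Finset.card_union_of_disjoint Finset.disjoint_sdiff]
      rw [h5, pow_add] at h4
      have h6 : (0 : ℝ) < p ^ A.card := by positivity
      have h7 : (cnt act (A ∪ S.image (act τ)) T : ℝ) * p ^ A.card ≤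
          ((cnt act A T : ℝ) * p ^ (S.image (act τ) \ A).card) * p ^ A.card := by
        calc _ ≤ _ := h4
          _ = _ := by ring
      exact le_of_mul_le_mul_right h7 h6
    have h8 : (cnt act A T : ℝ) * (cnt act S T : ℝ) ≤
        (cnt act A T : ℝ) * ∑ τ : G, p ^ (S.image (act τ) \ A).card := by
      rw [h2, Finset.mul_sum]
      exact Finset.sum_le_sum fun τ _ => h3 τ
    exact le_of_mul_le_mul_left h8 hpos
  -- step 2
  have h2 : ∀ τ : G, p ^ (S.image (act τ) \ A).card ≤
      ∑ I ∈ S.powerset, (if I.image (act τ) ⊆ A then (1 : ℝ) else 0) * p ^ (S.card - I.card) := by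
    intro τ
    have e1 : p ^ (S.image (act τ) \ A).card =
        ∏ x ∈ S, (if act τ x ∈ A then (1 : ℝ) else p) := by
      rw [← Finset.prod_image (s := S) (g := act τ)
        (f := fun y => if y ∈ A then (1 : ℝ) else p) (fun x _ y _ hxy => h.inj τ hxy)]
      rw [Finset.prod_ite, Finset.prod_const_one, one_mul, Finset.prod_const]
      congr 2
      ext y
      simp [Finset.mem_sdiff]
    have e2 : ∏ x ∈ S, (if act τ x ∈ A then (1 : ℝ) else p) ≤
        ∏ x ∈ S, ((if act τ x ∈ A then (1 : ℝ) else 0) + p) := by
      apply Finset.prod_le_prod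
      · intro x _
        split_ifs
        · exact zero_le_one
        · exact hp.le
      · intro x _
        split_ifs
        · linarith
        · linarith
    have e3 : ∏ x ∈ S, ((if act τ x ∈ A then (1 : ℝ) else 0) + p) =
        ∑ I ∈ S.powerset, (if I.image (act τ) ⊆ A then (1 : ℝ) else 0) * p ^ (S.card - I.card) := by
      rw [Finset.prod_add]
      refine Finset.sum_congr rfl fun I hI => ?_
      rw [Finset.mem_powerset] at hI
      rw [Finset.prod_const, Finset.card_sdiff_of_subset hI]
      congr 1
      by_cases hIA : I.image (act τ) ⊆ A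
      · rw [if_pos hIA]
        apply Finset.prod_eq_one
        intro x hx
        rw [if_pos (hIA (Finset.mem_image_of_mem _ hx))]
      · rw [if_neg hIA]
        rw [Finset.image_subset_iff] at hIA
        push Not at hIA
        obtain ⟨x, hx, hxA⟩ := hIA
        apply Finset.prod_eq_zero hx
        rw [if_neg hxA]
    rw [e1]
    exact e2.trans e3.le
  -- step 3
  calc (cnt act S T : ℝ) ≤ ∑ τ : G, p ^ (S.image (act τ) \ A).card := h1
    _ ≤ ∑ τ : G, ∑ I ∈ S.powerset,
          (if I.image (act τ) ⊆ A then (1 : ℝ) else 0) * p ^ (S.card - I.card) :=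
        Finset.sum_le_sum fun τ _ => h2 τ
    _ = ∑ I ∈ S.powerset, (cnt act I A : ℝ) * p ^ (S.card - I.card) := by
        rw [Finset.sum_comm]
        refine Finset.sum_congr rfl fun I _ => ?_
        rw [← Finset.sum_mul, cnt_eq_sum]
        push_cast
        rfl
    _ ≤ ∑ I ∈ S.powerset, ((Fintype.card G : ℝ) * κ ^ I.card) * p ^ (S.card - I.card) := by
        refine Finset.sum_le_sum fun I _ => ?_
        exact mul_le_mul_of_nonneg_right (hκ I) (by positivity)
    _ = (Fintype.card G : ℝ) * (κ + p) ^ S.card := by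
        rw [← Finset.sum_pow_mul_eq_add_pow, Finset.mul_sum]
        refine Finset.sum_congr rfl fun I _ => ?_
        ring

end Vale.Agent.P064G
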