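import Vale.Agent.P064G.Threshold

/-!
# P064G: the same bounds with `log₂ e(H)` in place of `log n`
-/

namespace Vale.Agent.P064G

open Finset Vale.Agent.P064 Vale.Agent.P064F

/-- The logarithmic factor `⌊log₂ e(H)⌋ + 1`. -/
noncomputable def lgE {n : ℕ} (H : SimpleGraph (Fin n)) : ℝ :=
  (Nat.log 2 H.edgeSet.ncard : ℝ) + 1

lemma lgE_pos {n : ℕ} (H : SimpleGraph (Fin n)) : 1 ≤ lgE H := by
  unfold lgE
  have : (0 : ℝ) ≤ (Nat.log 2 H.edgeSet.ncard : ℝ) := by positivity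
  linarith

lemma lgE_le_lgF {n : ℕ} (H : SimpleGraph (Fin n)) : lgE H ≤ lgF n := by
  unfold lgE lgF
  have h2 : H.edgeSet.ncard ≤ n.choose 2 := by
    rw [← card_edgF, ← card_edgF_top]
    exact Finset.card_le_card ((edgF_subset_iff H ⊤).2 le_top)
  have h3 : Nat.log 2 H.edgeSet.ncard ≤ Nat.log 2 (n.choose 2) := Nat.log_mono_right h2
  have h4 : (Nat.log 2 H.edgeSet.ncard : ℝ) ≤ (Nat.log 2 (n.choose 2) : ℝ) := by exact_mod_cast h3
  linarith

theorem cnt_le_sharp {n : ℕ} (H : SimpleGraph (Fin n)) (q : ℝ) (hq0 : 0 ≤ q)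
    (hyp : ∀ W : SimpleGraph (Fin n), W ≤ H → 1 ≤ (copies ⊤ W : ℝ) * q ^ W.edgeSet.ncard)
    (S : Finset (Sym2 (Fin n))) :
    (cnt (actE n) S (edgF H) : ℝ) ≤
      (Fintype.card (Equiv.Perm (Fin n)) : ℝ) * (4 * lgE H * q) ^ S.card := by
  have h1 := log_spread (isAct_actE n) q hq0 (edgF H).card (edgF H) rfl
    (fun W' hW' => stab_le_of_hyp H q hq0 hyp W' hW') S
  rw [card_edgF] at h1
  exact h1

/-- The counting inequality for all graphs `H`, with the factor `4 (⌊log₂ e(H)⌋ + 1)`. -/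
theorem sharp_spread {n : ℕ} (H : SimpleGraph (Fin n)) (q : ℝ) (hq0 : 0 ≤ q)
    (hyp : ∀ W : SimpleGraph (Fin n), W ≤ H → 1 ≤ (copies ⊤ W : ℝ) * q ^ W.edgeSet.ncard)
    (F : SimpleGraph (Fin n)) :
    (copies H F : ℝ) ≤ (copies ⊤ F : ℝ) * (min 1 (4 * lgE H * q)) ^ F.edgeSet.ncard := by
  have htop : (copies H F : ℝ) ≤ (copies ⊤ F : ℝ) := by exact_mod_cast copies_le_top H F
  by_cases hL : 1 ≤ 4 * lgE H * q
  · rw [min_eq_left hL, one_pow, mul_one]; exact htop
  push Not at hL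
  rw [min_eq_right hL.le]
  have h1 : ((PiSet F H).card : ℝ) ≤
      ((Fintype.card (Fin n)).factorial : ℝ) * (4 * lgE H * q) ^ F.edgeSet.ncard := by
    have h := cnt_le_sharp H q hq0 hyp (edgF F)
    rwa [cnt_eq_PiSet, card_edgF, Fintype.card_perm] at h
  have h2 : (copies H F : ℝ) * ((Fintype.card (Fin n)).factorial : ℝ) =
      (copies ⊤ F : ℝ) * ((PiSet F H).card : ℝ) := by exact_mod_cast orbit_count H F
  have hfac : (0 : ℝ) < ((Fintype.card (Fin n)).factorial : ℝ) := by positivity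
  have h3 : (copies H F : ℝ) * ((Fintype.card (Fin n)).factorial : ℝ) ≤
      ((copies ⊤ F : ℝ) * (4 * lgE H * q) ^ F.edgeSet.ncard) *
        ((Fintype.card (Fin n)).factorial : ℝ) := by
    rw [h2]
    calc (copies ⊤ F : ℝ) * ((PiSet F H).card : ℝ)
        ≤ (copies ⊤ F : ℝ) * (((Fintype.card (Fin n)).factorial : ℝ) *
          (4 * lgE H * q) ^ F.edgeSet.ncard) := mul_le_mul_of_nonneg_left h1 (by positivity)
      _ = _ := by ring
  exact le_of_mul_le_mul_right h3 hfac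

lemma spread_sharp {n : ℕ} (H : SimpleGraph (Fin n)) (q : ℝ) (hq0 : 0 ≤ q)
    (hyp : ∀ W : SimpleGraph (Fin n), W ≤ H → 1 ≤ (copies ⊤ W : ℝ) * q ^ W.edgeSet.ncard)
    (S : Finset (Sym2 (Fin n))) :
    ((univ.filter fun π : Equiv.Perm (Fin n) => S ⊆ cpE H π).card : ℝ) ≤
      (4 * lgE H * q) ^ S.card * (Fintype.card (Equiv.Perm (Fin n)) : ℝ) := by
  have hle : (univ.filter fun π : Equiv.Perm (Fin n) => S ⊆ cpE H π).card ≤
      cnt (actE n) S (edgF H) := by
    unfold cnt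
    apply Finset.card_le_card_of_injOn (fun π => π⁻¹)
    · intro π hπ
      have hπ' : S ⊆ cpE H π := by simpa using hπ
      have hgoal : S.image (actE n π⁻¹) ⊆ edgF H := by
        intro e he
        obtain ⟨e', he', rfl⟩ := Finset.mem_image.1 he
        have h2 := hπ' he'
        unfold cpE at h2
        obtain ⟨e'', he'', rfl⟩ := Finset.mem_image.1 h2
        have : actE n π⁻¹ (Sym2.map (⇑π) e'') = e'' := by
          have h3 := (isAct_actE n).mul π⁻¹ π e''
          rw [inv_mul_cancel, (isAct_actE n).one] at h3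
          exact h3.symm
        rw [this]
        exact he''
      simpa using hgoal
    · intro π _ π' _ h
      exact inv_injective h
  calc ((univ.filter fun π : Equiv.Perm (Fin n) => S ⊆ cpE H π).card : ℝ)
      ≤ (cnt (actE n) S (edgF H) : ℝ) := by exact_mod_cast hle
    _ ≤ _ := cnt_le_sharp H q hq0 hyp S
    _ = _ := by ring

lemma pEt_mem_sharp {n : ℕ} (H : SimpleGraph (Fin n)) (p : ℝ) (hp0 : 0 ≤ p)
    (hp : ∀ F : SimpleGraph (Fin n), F ≤ H → 1 / 2 ≤ expN n F p)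
    (F : SimpleGraph (Fin n)) :
    (copies H F : ℝ) / 2 ≤ expN n F (min 1 (8 * lgE H * p)) := by
  have h := sharp_spread H (2 * p) (by positivity) (hyp_of_mem' H p hp0 hp) F
  rw [expN_eq]
  have e : 4 * lgE H * (2 * p) = 8 * lgE H * p := by ring
  rw [e] at h
  have : (0 : ℝ) ≤ (copies H F : ℝ) := by positivity
  linarith

lemma probHas_ge_sharp {n : ℕ} (H : SimpleGraph (Fin n)) (p : ℝ) (hp0 : 0 < p)
    (hp : ∀ F : SimpleGraph (Fin n), F ≤ H → 1 / 2 ≤ expN n F p)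
    (hsmall : 512 * lgE H * p ≤ 1) :
    1 / 2 ≤ probHas n H (rho (512 * lgE H * p) (Nat.log 2 H.edgeSet.ncard + 1)) := by
  have hl := lgE_pos H
  have hsp : ∀ S : Finset (Sym2 (Fin n)),
      ((univ.filter fun π : Equiv.Perm (Fin n) => S ⊆ cpE H π).card : ℝ) ≤
      (8 * lgE H * p) ^ S.card * (Fintype.card (Equiv.Perm (Fin n)) : ℝ) := by
    intro S
    have := spread_sharp H (2 * p) (by positivity) (hyp_of_mem' H p hp0.le hp) S
    have e : 4 * lgE H * (2 * p) = 8 * lgE H * p := by ring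
    rwa [e] at this
  have hf := pp_spread (edgF (⊤ : SimpleGraph (Fin n))) (cpE H) (8 * lgE H * p) (512 * lgE H * p)
    (by positivity) (by positivity) hsmall (by linarith) (Nat.log 2 H.edgeSet.ncard + 1) (by
      intro π
      refine ⟨(cpE_prop H π).1, ?_⟩
      rw [(cpE_prop H π).2]
      exact Nat.lt_pow_succ_log_self (by norm_num) _) hsp
  rw [probHas_eq]
  linarith

theorem sharp_threshold (n : ℕ) (H : SimpleGraph (Fin n)) (hH : H ≠ ⊥) :
    pEt n H ≤ 8 * lgE H * pE n H ∧ pC n H ≤ 512 * (lgE H) ^ 2 * pE n H := by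
  obtain ⟨⟨hp0', hp1, hp⟩, -⟩ := pE_isLeast n H
  set p := pE n H with hpdef
  have hp0 : 0 < p := pos_of_mem' H hH p hp0' hp
  have hl1 := lgE_pos H
  constructor
  · have hmem : min 1 (8 * lgE H * p) ∈ {p : ℝ | 0 ≤ p ∧ p ≤ 1 ∧
        ∀ F : SimpleGraph (Fin n), F ≤ H → (copies H F : ℝ) / 2 ≤ expN n F p} :=
      ⟨le_min zero_le_one (by positivity), min_le_left _ _, fun F _ => pEt_mem_sharp H p hp0' hp F⟩
    exact ((pEt_isLeast n H).2 hmem).trans (min_le_right _ _)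
  · by_cases hsmall : 512 * lgE H * p ≤ 1
    · have hge := probHas_ge_sharp H p hp0 hp hsmall
      obtain ⟨hr0, hr1⟩ := rho_mem (512 * lgE H * p) (by positivity) hsmall
        (Nat.log 2 H.edgeSet.ncard + 1)
      have hle := rho_le (512 * lgE H * p) (by positivity) hsmall (Nat.log 2 H.edgeSet.ncard + 1)
      have h1 : pC n H ≤ rho (512 * lgE H * p) (Nat.log 2 H.edgeSet.ncard + 1) :=
        (pC_isLeast n H).2 ⟨hr0, hr1, hge⟩
      have h2 : ((Nat.log 2 H.edgeSet.ncard + 1 : ℕ) : ℝ) = lgE H := by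
        unfold lgE; push_cast; ring
      rw [h2] at hle
      calc pC n H ≤ _ := h1
        _ ≤ lgE H * (512 * lgE H * p) := hle
        _ = 512 * (lgE H) ^ 2 * p := by ring
    · push Not at hsmall
      have h1 : pC n H ≤ 1 := (pC_isLeast n H).1.2.1
      have h3 : 512 * lgE H * p ≤ 512 * (lgE H) ^ 2 * p := by
        apply mul_le_mul_of_nonneg_right _ hp0.le
        nlinarith
      linarith

end Vale.Agent.P064G
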